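import Vale.Agent.P068.Defs

/-!
# Augmenting paths for pairs of (possibly infinite) matroids
-/

open Set
open scoped Matroid

namespace Vale.Agent.P068

variable {α : Type*}

section basic

variable {M : Matroid α} {I S : Set α} {e f : α}

lemma exch (hI : M.Indep I) (he : e ∈ I) (hf : f ∈ M.closure I)
    (hfe : f ∉ M.closure (I \ {e})) :
    M.Indep (insert f (I \ {e})) ∧ M.closure (insert f (I \ {e})) = M.closure I := by
  have hI' : M.Indep (I \ {e}) := hI.sdiff _
  have hfE : f ∈ M.E := M.closure_subset_ground _ hf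
  have hins : insert e (I \ {e}) = I := by
    simp [insert_eq_of_mem he]
  refine ⟨?_, ?_⟩
  · rw [hI'.insert_indep_iff]
    exact Or.inl ⟨hfE, hfe⟩
  · have h1 : f ∈ M.closure (insert e (I \ {e})) \ M.closure (I \ {e}) := by
      rw [hins]; exact ⟨hf, hfe⟩
    rw [Matroid.closure_insert_congr h1, hins]

lemma mem_closure_diff_of_forall (hI : M.Indep I) (he : e ∈ M.closure I)
    (h : ∀ y ∈ S, e ∈ M.closure (I \ {y})) : e ∈ M.closure (I \ S) := by
  rcases S.eq_empty_or_nonempty with rfl | hS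
  · simpa using he
  · have h1 : I \ S = ⋂ y ∈ S, I \ {y} := by
      ext x
      simp only [mem_sdiff, mem_iInter, mem_singleton_iff]
      constructor
      · rintro ⟨hx, hxS⟩ y hy
        exact ⟨hx, fun hxy => hxS (hxy ▸ hy)⟩
      · intro hx
        obtain ⟨y, hy⟩ := hS
        exact ⟨(hx y hy).1, fun hxS => (hx x hxS).2 rfl⟩
    have h2 : M.Indep (⋃ y ∈ S, I \ {y}) :=
      hI.subset (iUnion₂_subset fun y _ => sdiff_subset)
    rw [h1, Matroid.closure_biInter_eq_biInter_closure_of_biUnion_indep hS h2]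
    simpa using h

end basic


/-- `Arc M I y z`: the element `y` of the independent set `I` lies on the fundamental circuit
of `z ∈ cl_M I \ I` with respect to `I`. -/
def Arc (M : Matroid α) (I : Set α) (y z : α) : Prop :=
  y ∈ I ∧ z ∈ M.closure I ∧ z ∉ I ∧ z ∉ M.closure (I \ {y})

/-- Breadth-first levels of the exchange digraph, recording only the vertices outside `I`. -/
def lvl (M N : Matroid α) (I : Set α) : ℕ → Set α
  | 0 => M.E \ M.closure I
  | n + 1 => {z | ∃ y z', z' ∈ lvl M N I n ∧ Arc N I y z' ∧ Arc M I y z}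

section aug

variable {M N : Matroid α} {I : Set α}

lemma lvl_disjoint (hI : M.Indep I) (n : ℕ) {z : α} (hz : z ∈ lvl M N I n) : z ∉ I := by
  cases n with
  | zero => exact fun h => hz.2 (M.subset_closure I hI.subset_ground h)
  | succ n =>
    obtain ⟨y, z', -, -, h⟩ := hz
    exact h.2.2.1

lemma lvl_subset_ground (n : ℕ) {z : α} (hz : z ∈ lvl M N I n) : z ∈ M.E := by
  cases n with
  | zero => exact hz.1
  | succ n =>
    obtain ⟨y, z', -, -, h⟩ := hz
    exact M.closure_subset_ground _ h.2.1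

/-- The key inductive statement along a shortest alternating path. -/
lemma aug_aux (hIM : M.Indep I) (hIN : N.Indep I) (n : ℕ)
    (hns : ∀ j < n, lvl M N I j ⊆ N.closure I) :
    ∀ z ∈ lvl M N I n, (∀ j < n, z ∉ lvl M N I j) →
    ∃ Ys Zs : Set α, Ys ⊆ I ∧ (∀ y ∈ Ys, ∃ j < n, ∃ z' ∈ lvl M N I j, Arc N I y z') ∧
      (∀ w ∈ Zs, ∃ j < n, w ∈ lvl M N I j) ∧
      Ys.Finite ∧ Zs.Finite ∧ Ys.ncard = Zs.ncard ∧
      N.Indep (I \ Ys ∪ Zs) ∧ N.closure (I \ Ys ∪ Zs) = N.closure I ∧
      M.Indep (insert z (I \ Ys ∪ Zs)) ∧ M.closure I ⊆ M.closure (insert z (I \ Ys ∪ Zs)) := by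
  induction n with
  | zero =>
    intro z hz _
    refine ⟨∅, ∅, empty_subset _, by simp, by simp, finite_empty, finite_empty, by simp,
      by simpa using hIN, by simp, ?_, ?_⟩
    · simp only [sdiff_empty, union_empty]
      rw [hIM.insert_indep_iff]
      exact Or.inl hz
    · simp only [sdiff_empty, union_empty]
      exact M.closure_subset_closure (subset_insert _ _)
  | succ n ih =>
    intro z hz hzmin
    obtain ⟨y, z', hz', hN, hM⟩ := hz
    have hz'min : ∀ j < n, z' ∉ lvl M N I j := by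
      intro j hj hzj
      exact hzmin (j + 1) (by omega) ⟨y, z', hzj, hN, hM⟩
    obtain ⟨Ys, Zs, hYI, hYlvl, hZlvl, hYfin, hZfin, hcard, hNind, hNcl, hMind, hMcl⟩ :=
      ih (fun j hj => hns j (by omega)) z' hz' hz'min
    have hyI : y ∈ I := hN.1
    -- `y` is not at a lower level
    have hylow : ∀ j < n, ∀ w ∈ lvl M N I j, ¬ Arc N I y w := by
      intro j hj w hw hA
      exact hzmin (j + 1) (by omega) ⟨y, w, hw, hA, hM⟩
    have hyYs : y ∉ Ys := by
      intro hy
      obtain ⟨j, hj, w, hw, hA⟩ := hYlvl y hy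
      exact hylow j hj w hw hA
    have hZI : ∀ w ∈ Zs, w ∉ I := by
      intro w hw
      obtain ⟨j, -, hj⟩ := hZlvl w hw
      exact lvl_disjoint hIM j hj
    have hyZs : y ∉ Zs := fun h => hZI y h hyI
    have hz'I : z' ∉ I := lvl_disjoint hIM n hz'
    have hzI : z ∉ I := hM.2.2.1
    have hz'Zs : z' ∉ Zs := by
      intro h
      obtain ⟨j, hj, hw⟩ := hZlvl z' h
      exact hz'min j hj hw
    have hyz' : y ≠ z' := fun h => hz'I (h ▸ hyI)
    -- set identity
    have hset : I \ insert y Ys ∪ insert z' Zs = insert z' ((I \ Ys ∪ Zs) \ {y}) := by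
      ext x
      simp only [mem_union, mem_sdiff, mem_insert_iff, mem_singleton_iff, not_or]
      constructor
      · rintro (⟨hx, hxy, hxY⟩ | rfl | hx)
        · exact Or.inr ⟨Or.inl ⟨hx, hxY⟩, hxy⟩
        · exact Or.inl rfl
        · exact Or.inr ⟨Or.inr hx, fun h => hyZs (h ▸ hx)⟩
      · rintro (rfl | ⟨⟨hx, hxY⟩ | hx, hxy⟩)
        · exact Or.inr (Or.inl rfl)
        · exact Or.inl ⟨hx, hxy, hxY⟩
        · exact Or.inr (Or.inr hx)
    have hyJ : y ∈ I \ Ys ∪ Zs := Or.inl ⟨hyI, hyYs⟩
    -- N side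
    have hNsub : (I \ Ys ∪ Zs) \ {y} ⊆ N.closure (I \ {y}) := by
      rintro x ⟨hx | hx, hxy⟩
      · exact N.subset_closure (I \ {y}) (sdiff_subset.trans hIN.subset_ground) ⟨hx.1, hxy⟩
      · obtain ⟨j, hj, hw⟩ := hZlvl x hx
        by_contra hcon
        exact hylow j hj x hw ⟨hyI, hns j (by omega) hw, hZI x hx, hcon⟩
    have hz'N : z' ∉ N.closure ((I \ Ys ∪ Zs) \ {y}) := by
      intro h
      exact hN.2.2.2 (N.closure_subset_closure_of_subset_closure hNsub h)
    obtain ⟨hN1, hN2⟩ := exch hNind hyJ (hNcl ▸ hN.2.1) hz'N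
    -- M side
    have hyJM : y ∈ insert z' (I \ Ys ∪ Zs) := Or.inr hyJ
    have hzK : z ∈ M.closure (I \ Ys) := by
      apply mem_closure_diff_of_forall hIM hM.2.1
      intro y' hy'
      obtain ⟨j, hj, w, hw, hA⟩ := hYlvl y' hy'
      by_contra hcon
      exact hzmin (j + 1) (by omega) ⟨y', w, hw, hA, hYI hy', hM.2.1, hzI, hcon⟩
    have hzM : z ∉ M.closure (insert z' (I \ Ys ∪ Zs) \ {y}) := by
      intro h
      have hun : M.Indep ((I \ Ys) ∪ (insert z' (I \ Ys ∪ Zs) \ {y})) := by
        apply hMind.subset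
        rintro x (hx | hx)
        · exact Or.inr (Or.inl hx)
        · exact hx.1
      have hint := hun.closure_inter_eq_inter_closure
      have hmem : z ∈ M.closure ((I \ Ys) ∩ (insert z' (I \ Ys ∪ Zs) \ {y})) := by
        rw [hint]; exact ⟨hzK, h⟩
      apply hM.2.2.2
      refine M.closure_subset_closure ?_ hmem
      rintro x ⟨hx1, hx2⟩
      exact ⟨hx1.1, hx2.2⟩
    obtain ⟨hM1, hM2⟩ := exch hMind hyJM (hMcl hM.2.1) hzM
    have hset2 : insert z (I \ insert y Ys ∪ insert z' Zs) =
        insert z (insert z' (I \ Ys ∪ Zs) \ {y}) := by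
      rw [hset, insert_sdiff_of_notMem _ (by simpa using hyz'.symm)]
    refine ⟨insert y Ys, insert z' Zs, insert_subset hyI hYI, ?_, ?_, hYfin.insert _,
      hZfin.insert _, ?_, ?_, ?_, ?_, ?_⟩
    · rintro y' (rfl | hy')
      · exact ⟨n, by omega, z', hz', hN⟩
      · obtain ⟨j, hj, w, hw, hA⟩ := hYlvl y' hy'
        exact ⟨j, by omega, w, hw, hA⟩
    · rintro w (rfl | hw)
      · exact ⟨n, by omega, hz'⟩
      · obtain ⟨j, hj, hw'⟩ := hZlvl w hw
        exact ⟨j, by omega, hw'⟩
    · rw [ncard_insert_of_notMem hyYs hYfin, ncard_insert_of_notMem hz'Zs hZfin, hcard]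
    · rw [hset]; exact hN1
    · rw [hset, hN2, hNcl]
    · rw [hset2]; exact hM1
    · rw [hset2, hM2]; exact hMcl


/-- Augmentation: if some level of the exchange digraph leaves `cl_N I`, there is a common
independent set `J` differing from `I` in finitely many elements, with one more element gained
than lost. -/
lemma exists_augment (hIM : M.Indep I) (hIN : N.Indep I) (hE : M.E = N.E)
    (h : ∃ n, ¬ lvl M N I n ⊆ N.closure I) :
    ∃ J, M.Indep J ∧ N.Indep J ∧ (J \ I).Finite ∧ (I \ J).Finite ∧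
      (J \ I).ncard = (I \ J).ncard + 1 := by
  classical
  let n := Nat.find h
  have hn : ¬ lvl M N I n ⊆ N.closure I := Nat.find_spec h
  have hmin : ∀ j < n, lvl M N I j ⊆ N.closure I := fun j hj => by
    have := Nat.find_min h hj
    simpa using this
  obtain ⟨z, hz, hzN⟩ := not_subset.1 hn
  have hzmin : ∀ j < n, z ∉ lvl M N I j := fun j hj hzj => hzN (hmin j hj hzj)
  obtain ⟨Ys, Zs, hYI, -, hZlvl, hYfin, hZfin, hcard, hNind, hNcl, hMind, -⟩ :=
    aug_aux hIM hIN n hmin z hz hzmin
  have hzE : z ∈ N.E := hE ▸ lvl_subset_ground n hz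
  have hzI : z ∉ I := lvl_disjoint hIM n hz
  have hZI : ∀ w ∈ Zs, w ∉ I := by
    intro w hw
    obtain ⟨j, -, hj⟩ := hZlvl w hw
    exact lvl_disjoint hIM j hj
  have hzZs : z ∉ Zs := by
    intro hzz
    obtain ⟨j, hj, hw⟩ := hZlvl z hzz
    exact hzmin j hj hw
  have h1 : insert z (I \ Ys ∪ Zs) \ I = insert z Zs := by
    ext x
    simp only [mem_sdiff, mem_insert_iff, mem_union]
    constructor
    · rintro ⟨rfl | ⟨hx, -⟩ | hx, hxI⟩
      · exact Or.inl rfl
      · exact absurd hx hxI
      · exact Or.inr hx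
    · rintro (rfl | hx)
      · exact ⟨Or.inl rfl, hzI⟩
      · exact ⟨Or.inr (Or.inr hx), hZI x hx⟩
  have h2 : I \ insert z (I \ Ys ∪ Zs) = Ys := by
    ext x
    simp only [mem_sdiff, mem_insert_iff, mem_union, not_or, not_and, not_not]
    constructor
    · rintro ⟨hx, -, hxY, -⟩
      exact hxY hx
    · intro hx
      exact ⟨hYI hx, fun h => hzI (h ▸ hYI hx), fun _ => hx, fun h => hZI x h (hYI hx)⟩
  refine ⟨insert z (I \ Ys ∪ Zs), hMind, ?_, ?_, ?_, ?_⟩
  · rw [hNind.insert_indep_iff]
    exact Or.inl ⟨hzE, hNcl ▸ hzN⟩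
  · rw [h1]; exact hZfin.insert _
  · rw [h2]; exact hYfin
  · rw [h1, h2, ncard_insert_of_notMem hzZs hZfin, hcard]

/-- If no level of the exchange digraph leaves `cl_N I` (no augmenting path), then `I` witnesses
the intersection property. -/
lemma satisfiesIntersection_of_forall_lvl (hIM : M.Indep I) (hIN : N.Indep I) (hE : M.E = N.E)
    (h : ∀ n, lvl M N I n ⊆ N.closure I) : SatisfiesIntersection M N := by
  classical
  set Y : Set α := {y | y ∈ I ∧ ∃ n, ∃ z ∈ lvl M N I n, Arc N I y z} with hY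
  have hYI : Y ⊆ I := fun y hy => hy.1
  have hun : I \ Y ∪ Y = I := sdiff_union_of_subset hYI
  refine ⟨I \ Y, Y, disjoint_sdiff_left, by rwa [hun], by rwa [hun], ?_⟩
  apply subset_antisymm
  · exact union_subset (M.closure_subset_ground _) (hE ▸ N.closure_subset_ground _)
  · intro e he
    by_cases heI : e ∈ I
    · by_cases heY : e ∈ Y
      · exact Or.inr (N.subset_closure Y (hYI.trans hIN.subset_ground) heY)
      · exact Or.inl (M.subset_closure (I \ Y) (sdiff_subset.trans hIM.subset_ground) ⟨heI, heY⟩)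
    · by_cases heR : ∃ n, e ∈ lvl M N I n
      · obtain ⟨n, hn⟩ := heR
        right
        have h1 : e ∈ N.closure (I \ (I \ Y)) := by
          apply mem_closure_diff_of_forall hIN (h n hn)
          intro y hy
          by_contra hcon
          exact hy.2 ⟨hy.1, n, e, hn, hy.1, h n hn, heI, hcon⟩
        rwa [sdiff_sdiff_right_self, inter_eq_self_of_subset_right hYI] at h1
      · left
        have hecl : e ∈ M.closure I := by
          by_contra hcon
          exact heR ⟨0, he, hcon⟩
        apply mem_closure_diff_of_forall hIM hecl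
        rintro y ⟨hyI, n, z, hz, hA⟩
        by_contra hcon
        exact heR ⟨n + 1, y, z, hz, hA, hyI, hecl, heI, hcon⟩

end aug

section finite

variable {M N : Matroid α}

/-- window lemma for counting finite differences -/
lemma ncard_window {A B W : Set α} (hW : W.Finite) (h1 : A \ B ⊆ W) (h2 : B \ A ⊆ W) :
    (A \ B).ncard + (B ∩ W).ncard = (B \ A).ncard + (A ∩ W).ncard := by
  have hA : A ∩ W = (A \ B) ∪ (A ∩ B ∩ W) := by
    ext x
    simp only [mem_inter_iff, mem_union, mem_sdiff]
    constructor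
    · rintro ⟨hx, hxW⟩
      by_cases hxB : x ∈ B
      · exact Or.inr ⟨⟨hx, hxB⟩, hxW⟩
      · exact Or.inl ⟨hx, hxB⟩
    · rintro (hx | hx)
      · exact ⟨hx.1, h1 hx⟩
      · exact ⟨hx.1.1, hx.2⟩
  have hB : B ∩ W = (B \ A) ∪ (A ∩ B ∩ W) := by
    ext x
    simp only [mem_inter_iff, mem_union, mem_sdiff]
    constructor
    · rintro ⟨hx, hxW⟩
      by_cases hxA : x ∈ A
      · exact Or.inr ⟨⟨hxA, hx⟩, hxW⟩
      · exact Or.inl ⟨hx, hxA⟩
    · rintro (hx | hx)
      · exact ⟨hx.1, h2 hx⟩
      · exact ⟨hx.1.2, hx.2⟩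
  have hfin : (A ∩ B ∩ W).Finite := hW.subset inter_subset_right
  have hdA : Disjoint (A \ B) (A ∩ B ∩ W) := disjoint_left.2 fun x hx hx' => hx.2 hx'.1.2
  have hdB : Disjoint (B \ A) (A ∩ B ∩ W) := disjoint_left.2 fun x hx hx' => hx.2 hx'.1.1
  rw [hA, hB, ncard_union_eq hdA (hW.subset h1) hfin, ncard_union_eq hdB (hW.subset h2) hfin]
  omega

/-- `Excess K R n`: `K` and `R` differ in finitely many elements and `K` has `n` more. -/
def Excess (K R : Set α) (n : ℕ) : Prop :=
  (K \ R).Finite ∧ (R \ K).Finite ∧ (K \ R).ncard = (R \ K).ncard + n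

lemma Excess.trans {K' K R : Set α} {m n : ℕ} (h' : Excess K' K m) (h : Excess K R n) :
    Excess K' R (n + m) := by
  obtain ⟨a1, a2, a3⟩ := h'
  obtain ⟨b1, b2, b3⟩ := h
  set W : Set α := (K' \ K) ∪ (K \ K') ∪ ((K \ R) ∪ (R \ K)) with hW
  have hWfin : W.Finite := (a1.union a2).union (b1.union b2)
  have s1 : K' \ K ⊆ W := fun x hx => Or.inl (Or.inl hx)
  have s2 : K \ K' ⊆ W := fun x hx => Or.inl (Or.inr hx)
  have s3 : K \ R ⊆ W := fun x hx => Or.inr (Or.inl hx)
  have s4 : R \ K ⊆ W := fun x hx => Or.inr (Or.inr hx)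
  have s5 : K' \ R ⊆ W := by
    intro x hx
    by_cases hxK : x ∈ K
    · exact s3 ⟨hxK, hx.2⟩
    · exact s1 ⟨hx.1, hxK⟩
  have s6 : R \ K' ⊆ W := by
    intro x hx
    by_cases hxK : x ∈ K
    · exact s2 ⟨hxK, hx.2⟩
    · exact s4 ⟨hx.1, hxK⟩
  have e1 := ncard_window hWfin s1 s2
  have e2 := ncard_window hWfin s3 s4
  have e3 := ncard_window hWfin s5 s6
  refine ⟨hWfin.subset s5, hWfin.subset s6, ?_⟩
  omega

/-- An independent subset of `X` loses at least as much as it gains against a basis of `X`. -/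
lemma encard_sdiff_le_of_isBasis {X D K : Set α} (hD : N.IsBasis D X) (hK : N.Indep K)
    (hKX : K ⊆ X) : (K \ D).encard ≤ (D \ K).encard := by
  obtain ⟨K', hK', hKK', hK'sub⟩ := hK.exists_isBasis_subset_union_isBasis hKX hD
  have h := hK'.isBase_restrict.encard_sdiff_comm hD.isBase_restrict
  calc (K \ D).encard ≤ (K' \ D).encard := encard_le_encard (sdiff_subset_sdiff_left hKK')
    _ = (D \ K').encard := h
    _ ≤ (D \ K).encard := encard_le_encard (sdiff_subset_sdiff_right hKK')

/-- Counting bound on one side of an almost-certificate. -/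
lemma encard_sdiff_le_add {J F A K : Set α} (hJ : N.Indep J)
    (hA : A ⊆ N.closure (J ∪ F)) (hK : N.Indep K) (hKA : K ⊆ A) :
    (K \ J).encard ≤ (J \ K).encard + F.encard := by
  obtain ⟨D, hD, hJD⟩ := hJ.subset_isBasis'_of_subset (X := J ∪ F) subset_union_left
  have hD' : N.IsBasis D (N.closure (J ∪ F)) := hD.isBasis_closure_right
  have h1 := encard_sdiff_le_of_isBasis hD' hK (hKA.trans hA)
  have hDF : D \ J ⊆ F := by
    rintro x ⟨hx, hxJ⟩
    exact (hD.subset hx).resolve_left hxJ
  have h2 : K \ J ⊆ (K \ D) ∪ ((D \ J) ∩ K) := by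
    rintro x ⟨hx, hxJ⟩
    by_cases hxD : x ∈ D
    · exact Or.inr ⟨⟨hxD, hxJ⟩, hx⟩
    · exact Or.inl ⟨hx, hxD⟩
  have h3 : D \ K ⊆ (J \ K) ∪ ((D \ J) \ K) := by
    rintro x ⟨hx, hxK⟩
    by_cases hxJ : x ∈ J
    · exact Or.inl ⟨hxJ, hxK⟩
    · exact Or.inr ⟨⟨hx, hxJ⟩, hxK⟩
  calc (K \ J).encard ≤ (K \ D).encard + ((D \ J) ∩ K).encard :=
        (encard_le_encard h2).trans (encard_union_le _ _)
    _ ≤ (D \ K).encard + ((D \ J) ∩ K).encard := by gcongr
    _ ≤ ((J \ K).encard + ((D \ J) \ K).encard) + ((D \ J) ∩ K).encard := by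
        gcongr
        exact (encard_le_encard h3).trans (encard_union_le _ _)
    _ = (J \ K).encard + (D \ J).encard := by
        rw [add_assoc, encard_sdiff_add_encard_inter]
    _ ≤ (J \ K).encard + F.encard := by
        gcongr

/-- Global counting bound for an almost-certificate. -/
lemma encard_sdiff_le_of_almost {JM JN F K : Set α} (hdj : Disjoint JM JN)
    (hM : M.Indep (JM ∪ JN)) (hN : N.Indep (JM ∪ JN))
    (hcl : M.closure (JM ∪ F) ∪ N.closure (JN ∪ F) = M.E)
    (hKM : M.Indep K) (hKN : N.Indep K) :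
    (K \ (JM ∪ JN)).encard ≤ ((JM ∪ JN) \ K).encard + (F.encard + F.encard) := by
  have hJM : M.Indep JM := hM.subset subset_union_left
  have hJN : N.Indep JN := hN.subset subset_union_right
  set A : Set α := M.closure (JM ∪ F) \ JN with hA
  have h1 : ((K ∩ A) \ JM).encard ≤ (JM \ (K ∩ A)).encard + F.encard :=
    encard_sdiff_le_add hJM (A := A) sdiff_subset (hKM.inter_right A) inter_subset_right
  have hC : K \ A ⊆ N.closure (JN ∪ F) := by
    rintro x ⟨hxK, hxA⟩
    by_cases hxN : x ∈ JN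
    · exact N.closure_subset_closure subset_union_left
        (N.subset_closure JN hJN.subset_ground hxN)
    · have : x ∈ M.closure (JM ∪ F) ∪ N.closure (JN ∪ F) := by
        rw [hcl]; exact hKM.subset_ground hxK
      rcases this with h | h
      · exact absurd ⟨h, hxN⟩ hxA
      · exact h
  have h2 : ((K \ A) \ JN).encard ≤ (JN \ (K \ A)).encard + F.encard :=
    encard_sdiff_le_add hJN hC (hKN.sdiff A) Subset.rfl
  have hJMA : JM ⊆ A := fun x hx =>
    ⟨M.closure_subset_closure subset_union_left (M.subset_closure JM hJM.subset_ground hx),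
      fun hxN => (disjoint_left.1 hdj) hx hxN⟩
  have hJNA : ∀ x ∈ JN, x ∉ A := fun x hx hxA => hxA.2 hx
  have e1 : K \ (JM ∪ JN) ⊆ ((K ∩ A) \ JM) ∪ ((K \ A) \ JN) := by
    rintro x ⟨hxK, hxJ⟩
    by_cases hxA : x ∈ A
    · exact Or.inl ⟨⟨hxK, hxA⟩, fun h => hxJ (Or.inl h)⟩
    · exact Or.inr ⟨⟨hxK, hxA⟩, fun h => hxJ (Or.inr h)⟩
  have e2 : JM \ (K ∩ A) = JM \ K := by
    ext x
    simp only [mem_sdiff, mem_inter_iff, not_and]
    exact ⟨fun h => ⟨h.1, fun hxK => h.2 hxK (hJMA h.1)⟩, fun h => ⟨h.1, fun hxK => absurd hxK h.2⟩⟩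
  have e3 : JN \ (K \ A) = JN \ K := by
    ext x
    simp only [mem_sdiff, not_and, not_not]
    exact ⟨fun h => ⟨h.1, fun hxK => hJNA x h.1 (h.2 hxK)⟩, fun h => ⟨h.1, fun hxK => absurd hxK h.2⟩⟩
  have e4 : ((JM ∪ JN) \ K).encard = (JM \ K).encard + (JN \ K).encard := by
    rw [union_sdiff_distrib, encard_union_eq]
    exact hdj.mono sdiff_subset sdiff_subset
  rw [e2] at h1
  rw [e3] at h2
  calc (K \ (JM ∪ JN)).encard ≤ ((K ∩ A) \ JM).encard + ((K \ A) \ JN).encard :=
        (encard_le_encard e1).trans (encard_union_le _ _)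
    _ ≤ ((JM \ K).encard + F.encard) + ((JN \ K).encard + F.encard) := add_le_add h1 h2
    _ = ((JM ∪ JN) \ K).encard + (F.encard + F.encard) := by
        rw [e4]; ring

/-- **Finite defect repair.**  If a common independent set `JM ∪ JN` covers the ground set up to a
finite set `F`, in the sense `cl_M (JM ∪ F) ∪ cl_N (JN ∪ F) = E`, then `(M, N)` satisfies
intersection. -/
theorem satisfiesIntersection_of_finite_defect (hE : M.E = N.E) {JM JN F : Set α}
    (hdj : Disjoint JM JN) (hM : M.Indep (JM ∪ JN)) (hN : N.Indep (JM ∪ JN)) (hF : F.Finite)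
    (hcl : M.closure (JM ∪ F) ∪ N.closure (JN ∪ F) = M.E) :
    SatisfiesIntersection M N := by
  classical
  -- downward induction on the excess over `JM ∪ JN`
  have key : ∀ d : ℕ, ∀ K n, M.Indep K → N.Indep K → Excess K (JM ∪ JN) n →
      n + d = 2 * F.ncard + 1 → SatisfiesIntersection M N := by
    intro d
    induction d with
    | zero =>
      intro K n hKM hKN hex hn
      exfalso
      have hb := encard_sdiff_le_of_almost hdj hM hN hcl hKM hKN
      obtain ⟨f1, f2, f3⟩ := hex
      rw [← f1.cast_ncard_eq, ← f2.cast_ncard_eq, ← hF.cast_ncard_eq] at hb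
      have hb' : (K \ (JM ∪ JN)).ncard ≤ ((JM ∪ JN) \ K).ncard + (F.ncard + F.ncard) := by
        exact_mod_cast hb
      omega
    | succ d ih =>
      intro K n hKM hKN hex hn
      by_cases h : ∀ n, lvl M N K n ⊆ N.closure K
      · exact satisfiesIntersection_of_forall_lvl hKM hKN hE h
      · push Not at h
        obtain ⟨K', hK'M, hK'N, g1, g2, g3⟩ := exists_augment hKM hKN hE h
        exact ih K' (n + 1) hK'M hK'N (Excess.trans ⟨g1, g2, g3⟩ hex) (by omega)
  exact key (2 * F.ncard + 1) (JM ∪ JN) 0 hM hN ⟨by simp, by simp, by simp⟩ (by omega)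

lemma SatisfiesIntersection.symm (hE : M.E = N.E) (h : SatisfiesIntersection M N) :
    SatisfiesIntersection N M := by
  obtain ⟨JM, JN, hdj, hM, hN, hcl⟩ := h
  refine ⟨JN, JM, hdj.symm, ?_, ?_, ?_⟩
  · rwa [union_comm]
  · rwa [union_comm]
  · rw [union_comm, hcl, hE]

/-- The intersection property is invariant under dualising both matroids. -/
lemma SatisfiesIntersection.dual (hE : M.E = N.E) (h : SatisfiesIntersection M N) :
    SatisfiesIntersection M✶ N✶ := by
  obtain ⟨JM, JN, hdj, hM, hN, hcl⟩ := h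
  have hJM : M.Indep JM := hM.subset subset_union_left
  have hJN : N.Indep JN := hN.subset subset_union_right
  set A : Set α := M.closure JM \ JN with hA
  have hAE : A ⊆ M.E := sdiff_subset.trans (M.closure_subset_ground _)
  have hJMA : JM ⊆ A := fun x hx =>
    ⟨M.subset_closure JM hJM.subset_ground hx, fun hxN => (disjoint_left.1 hdj) hx hxN⟩
  have hbM : M.IsBasis JM A := hJM.isBasis_of_subset_of_subset_closure hJMA sdiff_subset
  have hbN : N.IsBasis JN (N.E \ A) := by
    apply hJN.isBasis_of_subset_of_subset_closure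
    · exact fun x hx => ⟨hJN.subset_ground hx, fun hxA => hxA.2 hx⟩
    · rintro x ⟨hxE, hxA⟩
      by_cases hxN : x ∈ JN
      · exact N.subset_closure JN hJN.subset_ground hxN
      · have : x ∈ M.closure JM ∪ N.closure JN := by rw [hcl, hE]; exact hxE
        rcases this with h1 | h1
        · exact absurd ⟨h1, hxN⟩ hxA
        · exact h1
  obtain ⟨B, hB, hJB⟩ := hM.exists_isBase_superset
  obtain ⟨B', hB', hJB'⟩ := hN.exists_isBase_superset
  have hBA : B ∩ A = JM :=
    hbM.inter_eq_of_subset_indep (subset_union_left.trans hJB) hB.indep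
  have hB'A : B' ∩ (N.E \ A) = JN :=
    hbN.inter_eq_of_subset_indep (subset_union_right.trans hJB') hB'.indep
  have h1 : M✶.IsBasis ((M.E \ B) ∩ (M.E \ A)) (M.E \ A) :=
    (hB.inter_isBasis_iff_compl_inter_isBasis_dual hAE).1 (hBA ▸ hbM)
  have h2 : N✶.IsBasis ((N.E \ B') ∩ (N.E \ (N.E \ A))) (N.E \ (N.E \ A)) :=
    (hB'.inter_isBasis_iff_compl_inter_isBasis_dual sdiff_subset).1 (hB'A ▸ hbN)
  have hAA : N.E \ (N.E \ A) = A := by
    rw [sdiff_sdiff_right_self, inter_eq_self_of_subset_right (hE ▸ hAE)]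
  rw [hAA] at h2
  refine ⟨(M.E \ B) ∩ (M.E \ A), (N.E \ B') ∩ A, ?_, ?_, ?_, ?_⟩
  · exact disjoint_left.2 fun x hx hx' => hx.2.2 hx'.2
  · apply hB.compl_isBase_dual.indep.subset
    rintro x (hx | hx)
    · exact hx.1
    · refine ⟨hAE hx.2, fun hxB => ?_⟩
      have : x ∈ JM := hBA ▸ ⟨hxB, hx.2⟩
      exact hx.1.2 (hJB' (Or.inl this))
  · apply hB'.compl_isBase_dual.indep.subset
    rintro x (hx | hx)
    · refine ⟨hE ▸ hx.1.1, fun hxB => ?_⟩
      have : x ∈ JN := hB'A ▸ ⟨hxB, hE ▸ hx.2.1, hx.2.2⟩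
      exact hx.1.2 (hJB (Or.inr this))
    · exact hx.1
  · apply subset_antisymm
    · exact union_subset (M✶.closure_subset_ground _)
        ((N✶.closure_subset_ground _).trans (by simp [hE]))
    · intro x hx
      by_cases hxA : x ∈ A
      · exact Or.inr (h2.subset_closure hxA)
      · exact Or.inl (h1.subset_closure ⟨hx, hxA⟩)

lemma satisfiesIntersection_dual_iff (hE : M.E = N.E) :
    SatisfiesIntersection M✶ N✶ ↔ SatisfiesIntersection M N := by
  constructor
  · intro h
    have := h.dual (M := M✶) (N := N✶) (by simpa using hE)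
    simpa using this
  · exact fun h => h.dual hE

theorem satisfiesIntersection_of_rankFinite (hE : M.E = N.E) [N.RankFinite] :
    SatisfiesIntersection M N := by
  obtain ⟨B, hB⟩ := N.exists_isBase
  refine satisfiesIntersection_of_finite_defect hE (JM := ∅) (JN := ∅) (F := B) (by simp)
    (by simp) (by simp) hB.finite ?_
  rw [empty_union, hB.closure_eq, ← hE]
  exact union_eq_self_of_subset_left (M.closure_subset_ground _)

theorem satisfiesIntersection_of_dual_rankFinite (hE : M.E = N.E) [N✶.RankFinite] :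
    SatisfiesIntersection M N :=
  (satisfiesIntersection_dual_iff hE).1
    (satisfiesIntersection_of_rankFinite (M := M✶) (N := N✶) (by simpa using hE))


/-- **Stability under deleting a set of finite rank.** -/
theorem satisfiesIntersection_of_restrict (hE : M.E = N.E) {X : Set α} (hX : X ⊆ M.E)
    (hfin : N.IsRkFinite (M.E \ X)) (h : SatisfiesIntersection (M ↾ X) (N ↾ X)) :
    SatisfiesIntersection M N := by
  obtain ⟨JM, JN, hdj, hM, hN, hcl⟩ := h
  obtain ⟨F, hF, hFfin⟩ := hfin.exists_finite_isBasis'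
  have hXN : X ⊆ N.E := hE ▸ hX
  have hJMX : JM ⊆ X := subset_union_left.trans hM.2
  have hJNX : JN ⊆ X := subset_union_right.trans hM.2
  rw [M.restrict_closure_eq hJMX hX, N.restrict_closure_eq hJNX hXN,
    Matroid.restrict_ground_eq] at hcl
  refine satisfiesIntersection_of_finite_defect hE hdj hM.1 hN.1 hFfin ?_
  apply subset_antisymm
  · exact union_subset (M.closure_subset_ground _) (hE ▸ N.closure_subset_ground _)
  · intro x hx
    by_cases hxX : x ∈ X
    · have : x ∈ M.closure JM ∩ X ∪ N.closure JN ∩ X := by rw [hcl]; exact hxX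
      rcases this with h1 | h1
      · exact Or.inl (M.closure_subset_closure subset_union_left h1.1)
      · exact Or.inr (N.closure_subset_closure subset_union_left h1.1)
    · right
      have h2 : x ∈ N.closure (M.E \ X) :=
        N.subset_closure (M.E \ X) (hE ▸ sdiff_subset) ⟨hx, hxX⟩
      rw [← hF.closure_eq_closure] at h2
      exact N.closure_subset_closure subset_union_right h2

/-- **Stability under contracting a set of finite corank.** -/
theorem satisfiesIntersection_of_contract (hE : M.E = N.E) {D : Set α}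
    (hfin : N✶.IsRkFinite D) (h : SatisfiesIntersection (M ／ D) (N ／ D)) :
    SatisfiesIntersection M N := by
  have h1 : SatisfiesIntersection (M ／ D)✶ (N ／ D)✶ :=
    h.dual (by simp [hE])
  rw [Matroid.dual_contract, Matroid.dual_contract, Matroid.delete_eq_restrict,
    Matroid.delete_eq_restrict, Matroid.dual_ground, Matroid.dual_ground, ← hE] at h1
  rw [← satisfiesIntersection_dual_iff hE]
  refine satisfiesIntersection_of_restrict (M := M✶) (N := N✶) (by simpa using hE)
    (X := M.E \ D) sdiff_subset ?_ h1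
  apply hfin.subset
  rw [Matroid.dual_ground, sdiff_sdiff_right_self]
  exact inter_subset_right

theorem satisfiesIntersection_of_isUniform (hE : M.E = N.E) (hU : IsUniform N) :
    SatisfiesIntersection M N := by
  obtain ⟨B, hB⟩ := M.exists_isBase
  rcases hU B (hE ▸ hB.subset_ground) with h | h
  · refine ⟨B, ∅, by simp, by simpa using hB.indep, by simpa using h, ?_⟩
    rw [hB.closure_eq]
    exact union_eq_self_of_subset_right (hE ▸ N.closure_subset_ground _)
  · obtain ⟨B', hB', hB'B⟩ := h.exists_isBase_subset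
    refine ⟨∅, B', by simp, by simpa using hB.indep.subset hB'B, by simpa using hB'.indep, ?_⟩
    rw [hB'.closure_eq, ← hE]
    exact union_eq_self_of_subset_left (M.closure_subset_ground _)

/-- **Nearly uniform matroids.**  If `N` becomes uniform after deleting a set `D₁` of finite rank
and contracting a set `D₂` of finite corank (finite rank in the dual), then `(M, N)` satisfies
intersection for every matroid `M` on the same ground set. -/
theorem satisfiesIntersection_of_nearly_uniform (hE : M.E = N.E) {D₁ D₂ : Set α}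
    (h₁ : N.IsRkFinite D₁) (h₂ : N✶.IsRkFinite D₂) (hU : IsUniform (N ＼ D₁ ／ D₂)) :
    SatisfiesIntersection M N := by
  have hE1 : (M ＼ D₁).E = (N ＼ D₁).E := by simp [hE]
  have hE2 : (M ＼ D₁ ／ D₂).E = (N ＼ D₁ ／ D₂).E := by simp [hE]
  have a1 : SatisfiesIntersection (M ＼ D₁ ／ D₂) (N ＼ D₁ ／ D₂) :=
    satisfiesIntersection_of_isUniform hE2 hU
  have a2 : SatisfiesIntersection (M ＼ D₁) (N ＼ D₁) := by
    refine satisfiesIntersection_of_contract hE1 ?_ a1
    rw [Matroid.dual_delete]
    obtain ⟨I, hI⟩ := (N✶ ／ D₁).exists_isBasis' D₂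
    exact hI.isRkFinite_of_finite (h₂.finite_of_indep_subset hI.indep.of_contract hI.subset)
  rw [Matroid.delete_eq_restrict, Matroid.delete_eq_restrict, ← hE] at a2
  refine satisfiesIntersection_of_restrict hE sdiff_subset ?_ a2
  apply h₁.subset
  rw [sdiff_sdiff_right_self]
  exact inter_subset_right

end finite

end Vale.Agent.P068
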