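import Mathlib

/-!
# Definitions for the infinite matroid intersection and packing/covering conjectures
`Matroid α` in Mathlib is a matroid in the sense of Bruhn-Diestel-Kriesell-Pendavingh-Wollan
on the ground set `M.E : Set α` (possibly infinite).
-/

open Set
open scoped Matroid

namespace Vale.Agent.P068

variable {α : Type*}

/-- The pair `(M, N)` satisfies intersection: some common independent set `J = JM ∪ JN`
(disjoint union) has `cl_M JM ∪ cl_N JN = E`. -/
def SatisfiesIntersection (M N : Matroid α) : Prop :=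
  ∃ JM JN : Set α, Disjoint JM JN ∧ M.Indep (JM ∪ JN) ∧ N.Indep (JM ∪ JN) ∧
    M.closure JM ∪ N.closure JN = M.E

/-- A matroid is uniform if every subset of its ground set is independent or spanning. -/
def IsUniform (U : Matroid α) : Prop := ∀ X ⊆ U.E, U.Indep X ∨ U.Spanning X

/-- A packing/covering partition of `E` for the family `M i` of matroids on `E`:
`E = P ∪ C` disjointly, pairwise disjoint `S i ⊆ P` with `cl_{M i ↾ P} (S i) = P`, and sets
`I i ⊆ C`, independent in the contraction `M i . C = ((M i)✶ ↾ C)✶`, whose union is `C`. -/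
def HasPackingCovering {ι : Type*} (M : ι → Matroid α) (E : Set α) : Prop :=
  ∃ (P C : Set α) (S I : ι → Set α), P ∪ C = E ∧ Disjoint P C ∧
    (∀ i, S i ⊆ P) ∧ (∀ i, I i ⊆ C) ∧ (∀ i j, i ≠ j → Disjoint (S i) (S j)) ∧
    (∀ i, ((M i) ↾ P).closure (S i) = P) ∧ (∀ i, (((M i)✶ ↾ C)✶).Indep (I i)) ∧
    (⋃ i, I i) = C

end Vale.Agent.P068
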