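import Vale.Agent.P068.Defs

/-!
# Packing/covering for families with at most one non-uniform member
-/

open Set
open scoped Matroid

namespace Vale.Agent.P068

variable {α : Type*} {ι : Type*}

theorem hasPackingCovering_of_uniform_aux (M : ι → Matroid α) (E : Set α)
    (hE : ∀ i, (M i).E = E) (i₀ : ι) (hU : ∀ i, i ≠ i₀ → IsUniform (M i)) :
    HasPackingCovering M E := by
  classical
  obtain ⟨_, hwf⟩ := exists_wellFoundedLT ι
  obtain ⟨B, hB⟩ := (M i₀).exists_isBase
  have hBE : B ⊆ E := hE i₀ ▸ hB.subset_ground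
  -- transfinite greedy choice
  let F : ∀ i : ι, (∀ j : ι, j < i → Set α) → Set α := fun i rec =>
    if i = i₀ then B else
      Classical.choose ((M i).exists_isBasis' ((E \ B) \ (⋃ j : {j : ι // j < i}, rec j.1 j.2)))
  let X : ι → Set α := hwf.wf.fix F
  let R : ι → Set α := fun i => (E \ B) \ (⋃ j : {j : ι // j < i}, X j.1)
  have hX : ∀ i, X i = F i (fun j _ => X j) := fun i => hwf.wf.fix_eq F i
  have hX0 : X i₀ = B := by rw [hX]; simp [F]
  have hXb : ∀ i, i ≠ i₀ → (M i).IsBasis (X i) (R i) := by
    intro i hi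
    have h1 : X i = Classical.choose ((M i).exists_isBasis' (R i)) := by
      rw [hX]; simp [F, hi, R]
    have h2 := Classical.choose_spec ((M i).exists_isBasis' (R i))
    rw [← h1] at h2
    exact h2.isBasis (by rw [hE i]; exact sdiff_subset.trans sdiff_subset)
  have hXE : ∀ i, X i ⊆ E := by
    intro i
    by_cases hi : i = i₀
    · rw [hi, hX0]; exact hBE
    · exact (hXb i hi).subset.trans (sdiff_subset.trans sdiff_subset)
  have hXind : ∀ i, (M i).Indep (X i) := by
    intro i
    by_cases hi : i = i₀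
    · rw [hi, hX0]; exact hB.indep
    · exact (hXb i hi).indep
  have hdisj_lt : ∀ i j, j < i → Disjoint (X i) (X j) := by
    intro i j hji
    by_cases hi : i = i₀
    · have hj : j ≠ i₀ := fun h => by rw [hi, h] at hji; exact lt_irrefl _ hji
      rw [hi, hX0]
      exact disjoint_left.2 fun x hxB hxj => ((hXb j hj).subset hxj).1.2 hxB
    · refine disjoint_left.2 fun x hxi hxj => ((hXb i hi).subset hxi).2 ?_
      exact mem_iUnion.2 ⟨⟨j, hji⟩, hxj⟩
  have hdisj : ∀ i j, i ≠ j → Disjoint (X i) (X j) := by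
    intro i j hij
    rcases lt_or_gt_of_ne hij with h | h
    · exact (hdisj_lt j i h).symm
    · exact hdisj_lt i j h
  by_cases hcase : ∀ i, i ≠ i₀ → (M i).Spanning (R i)
  · -- packing
    refine ⟨E, ∅, X, fun _ => ∅, by simp, by simp, hXE, fun _ => Subset.rfl, hdisj, ?_, ?_, by simp⟩
    · intro i
      have hbase : (M i).IsBase (X i) := by
        by_cases hi : i = i₀
        · rw [hi, hX0]; exact hB
        · exact (hXb i hi).isBase_of_spanning (hcase i hi)
      have : (M i) ↾ E = M i := by rw [← hE i]; exact (M i).restrict_ground_eq_self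
      rw [this, hbase.closure_eq, hE i]
    · intro i
      exact Matroid.empty_indep _
  · -- covering
    push Not at hcase
    obtain ⟨i₁, hi₁, hns⟩ := hcase
    have hRE : R i₁ ⊆ (M i₁).E := by rw [hE i₁]; exact sdiff_subset.trans sdiff_subset
    have hRind : (M i₁).Indep (R i₁) := (hU i₁ hi₁ (R i₁) hRE).resolve_right hns
    have hXR : X i₁ = R i₁ := hRind.eq_of_isBasis (hXb i₁ hi₁)
    refine ⟨∅, E, fun _ => ∅, X, by simp, by simp, fun _ => Subset.rfl, hXE, by simp, ?_, ?_, ?_⟩
    · intro i
      apply subset_antisymm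
      · exact ((M i ↾ (∅ : Set α)).closure_subset_ground _)
      · exact empty_subset _
    · intro i
      have : ((M i)✶ ↾ E)✶ = M i := by
        have h1 : (M i)✶ ↾ E = (M i)✶ := by
          rw [← hE i, ← Matroid.dual_ground]; exact (M i)✶.restrict_ground_eq_self
        rw [h1, Matroid.dual_dual]
      rw [this]; exact hXind i
    · apply subset_antisymm (iUnion_subset hXE)
      intro x hx
      by_cases hxB : x ∈ B
      · exact mem_iUnion.2 ⟨i₀, hX0 ▸ hxB⟩
      · by_cases hxU : x ∈ ⋃ j : {j : ι // j < i₁}, X j.1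
        · obtain ⟨j, hj⟩ := mem_iUnion.1 hxU
          exact mem_iUnion.2 ⟨j.1, hj⟩
        · exact mem_iUnion.2 ⟨i₁, hXR ▸ ⟨⟨hx, hxB⟩, hxU⟩⟩

/-- Every family of matroids on a common ground set with at most one non-uniform member has a
packing/covering partition (arbitrary index set, arbitrary ground set). -/
theorem hasPackingCovering_of_uniform (M : ι → Matroid α) (E : Set α)
    (hE : ∀ i, (M i).E = E) (hU : ∀ i j, ¬ IsUniform (M i) → ¬ IsUniform (M j) → i = j) :
    HasPackingCovering M E := by
  classical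
  by_cases hne : ∃ i, ¬ IsUniform (M i)
  · obtain ⟨i₀, hi₀⟩ := hne
    refine hasPackingCovering_of_uniform_aux M E hE i₀ fun i hi => ?_
    by_contra hcon
    exact hi (hU i i₀ hcon hi₀)
  · push Not at hne
    rcases isEmpty_or_nonempty ι with hι | ⟨⟨i₀⟩⟩
    · exact ⟨E, ∅, fun _ => ∅, fun _ => ∅, by simp, by simp, fun i => isEmptyElim i,
        fun i => isEmptyElim i, fun i => isEmptyElim i, fun i => isEmptyElim i,
        fun i => isEmptyElim i, by simp⟩
    · exact hasPackingCovering_of_uniform_aux M E hE i₀ fun i _ => hne i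

end Vale.Agent.P068
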